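import Vale.Agent.Lib.P034.Large

namespace Vale.Agent.Results.P034.A_large_sets

open Vale.Agent.Lib.P034

/-- Let every `H ∈ F` contain some `T ∈ F` with `|T| ≤ ℓ`, let `t ≥ 6`, and let `k` be such that the
`k`-fold iterated ceiling of the binary logarithm of `ℓ` is at most `2^t` (`k = 0` when `ℓ ≤ 2^t`).
Let `g` be a fractional cover of `F` of cost at most `1/2` at `p`.
(1) If `g` is supported on sets of size at least `t`, then `F` is `p / (2 (k + 4))`-small.
(2) In general some family `G` has cost at most `1/2` at `p / (4 (k + 4))` and each `H ∈ F` either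
contains a member of `G` or has `g`-weight at least `1/2` on its subsets of size less than `t`. -/
theorem result {α : Type*} [DecidableEq α] [Fintype α] (F : Finset (Finset α)) (ℓ t k : ℕ)
    (hℓ : ∀ H ∈ F, ∃ T ∈ F, T ⊆ H ∧ T.card ≤ ℓ) (ht : 6 ≤ t) (hk : (Nat.clog 2)^[k] ℓ ≤ 2 ^ t)
    (g : Finset α → ℝ) (p : ℝ) (hp0 : 0 ≤ p) (hg : IsFracCover F g)
    (hcost : fracCost g p ≤ 1 / 2) :
    ((∀ S, g S ≠ 0 → t ≤ S.card) → IsSmall F (p / (2 * ((k : ℝ) + 4)))) ∧
    ∃ G : Finset (Finset α), ∑ S ∈ G, (p / (4 * ((k : ℝ) + 4))) ^ S.card ≤ 1 / 2 ∧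
      ∀ H ∈ F, (∃ S ∈ G, S ⊆ H) ∨
        1 / 2 ≤ ∑ S ∈ H.powerset.filter (fun S => S.card < t), g S :=
  ⟨fun hsupp => isSmall_of_large_iter hℓ ht hk hp0 hg hsupp hcost, reduction hℓ ht hk hp0 hg hcost⟩

end Vale.Agent.Results.P034.A_large_sets
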