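import Vale.Agent.Lib.P034.Main

namespace Vale.Agent.Results.P034.A_logstar

open Vale.Agent.Lib.P034

/-- For every family `F` of subsets of a finite set `X` (the type `α`) and every `p ∈ [0,1]`:
a fractional cover of cost at most `1/2` at `p` forces `F` to be `p / T`-small with
`T = 20 (log* |X| + 1)`; hence `q_f(F) ≤ 20 (log* |X| + 1) q(F)`. -/
theorem result {α : Type*} [DecidableEq α] [Fintype α] (F : Finset (Finset α)) :
    (∀ (p : ℝ) (g : Finset α → ℝ), 0 ≤ p → p ≤ 1 → IsFracCover F g → fracCost g p ≤ 1 / 2 →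
      IsSmall F (p / (20 * ((logStar (Fintype.card α) : ℝ) + 1)))) ∧
    fracThreshold F ≤ 20 * ((logStar (Fintype.card α) : ℝ) + 1) * intThreshold F :=
  ⟨fun _ _ hp0 hp1 hg hc => isSmall_of_fracCover hp0 hp1 hg hc, fracThreshold_le F⟩

end Vale.Agent.Results.P034.A_logstar
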