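import Vale.Agent.Lib.P034.Ell

namespace Vale.Agent.Results.P034.A_logstar_ell

open Vale.Agent.Lib.P034

/-- Let `ℓ` bound the size of the minimal members of `F`, in the form: every `H ∈ F` contains
some `T ∈ F` with `|T| ≤ ℓ`. A fractional cover of cost at most `1/2` at `p` forces `F` to be
`p / T`-small with `T = 40 (log* ℓ + 3)`; hence `q_f(F) ≤ 40 (log* ℓ + 3) q(F)`. -/
theorem result {α : Type*} [DecidableEq α] [Fintype α] (F : Finset (Finset α)) (ℓ : ℕ)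
    (hℓ : ∀ H ∈ F, ∃ T ∈ F, T ⊆ H ∧ T.card ≤ ℓ) :
    (∀ (p : ℝ) (g : Finset α → ℝ), 0 ≤ p → p ≤ 1 → IsFracCover F g → fracCost g p ≤ 1 / 2 →
      IsSmall F (p / (40 * ((logStar ℓ : ℝ) + 3)))) ∧
    fracThreshold F ≤ 40 * ((logStar ℓ : ℝ) + 3) * intThreshold F :=
  ⟨fun _ _ hp0 hp1 hg hc => isSmall_of_ell hℓ hp0 hp1 hg hc, fracThreshold_le_ell hℓ⟩

end Vale.Agent.Results.P034.A_logstar_ell
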